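import Mathlib

/-!
# A Moebius-type elimination step on `ZMod m`

Pure algebra: a class `Mm` of integer statistics on words which is closed under sums, integer
multiples and division by positive integers.  If all sums of a family `F y` over cosets of
proper kernels are in the class, and all combinations `∑ y, lam y * F y` whose coefficient
vector annihilates the indicator functions of all periodic sets are in the class, then every
`F x` is in the class.
-/

namespace Vale.Agent.Helper28.P329Mobius

open Finset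

section Abstract

variable {A : Type} [AddCommGroup A] [Fintype A]

/-- the operator `lam ↦ |K| * lam - ∑ h ∈ K, lam (· - h)` -/
def opT (K : Finset A) (lam : A → ℤ) : A → ℤ :=
  fun y => (K.card : ℤ) * lam y - ∑ h ∈ K, lam (y - h)

/-- pairing of a coefficient vector with the indicator function of a set -/
def phi (lam : A → ℤ) (s : A → Bool) : ℤ :=
  ∑ y, lam y * (if s y = true then 1 else 0)

/-- invariance of a set under all translations from `K` -/
def Inv (K : Finset A) (s : A → Bool) : Prop := ∀ h ∈ K, ∀ y, s (y + h) = s y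

theorem phi_opT (K : Finset A) (lam : A → ℤ) (s : A → Bool) :
    phi (opT K lam) s
      = (K.card : ℤ) * phi lam s - ∑ h ∈ K, phi lam (fun y => s (y + h)) := by
  unfold phi opT
  simp only [sub_mul, Finset.sum_sub_distrib, Finset.mul_sum, Finset.sum_mul, mul_assoc]
  congr 1
  rw [Finset.sum_comm]
  refine Finset.sum_congr rfl (fun h _ => ?_)
  exact Fintype.sum_equiv (Equiv.subRight h) _ _ (fun y => by simp)

theorem comb_opT {α : Type} (K : Finset A) (lam : A → ℤ) (F : A → List α → ℤ) (w : List α) :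
    ∑ y, opT K lam y * F y w
      = (K.card : ℤ) * ∑ y, lam y * F y w - ∑ y, lam y * ∑ h ∈ K, F (y + h) w := by
  unfold opT
  simp only [sub_mul, Finset.sum_sub_distrib, Finset.mul_sum, Finset.sum_mul, mul_assoc]
  congr 1
  rw [Finset.sum_comm]
  conv_rhs => rw [Finset.sum_comm]
  refine Finset.sum_congr rfl (fun h _ => ?_)
  exact Fintype.sum_equiv (Equiv.subRight h) _ _ (fun y => by simp)

theorem phi_fold_eq_zero (Ks : List (Finset A)) (lam0 : A → ℤ) (s : A → Bool)
    (hs : ∃ K ∈ Ks, Inv K s) : phi (Ks.foldr opT lam0) s = 0 := by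
  induction Ks generalizing s with
  | nil => simp at hs
  | cons K Ks ih =>
    rw [List.foldr_cons, phi_opT]
    obtain ⟨K', hK', hinv⟩ := hs
    rcases List.mem_cons.1 hK' with rfl | hmem
    · have h1 : ∀ h ∈ K', phi (Ks.foldr opT lam0) (fun y => s (y + h))
          = phi (Ks.foldr opT lam0) s := by
        intro h hh
        congr 1
        funext y
        exact hinv h hh y
      rw [Finset.sum_congr rfl h1]
      simp
    · have h0 : phi (Ks.foldr opT lam0) s = 0 := ih s ⟨K', hmem, hinv⟩
      have h1 : ∀ h ∈ K, phi (Ks.foldr opT lam0) (fun y => s (y + h)) = 0 := by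
        intro h _
        refine ih _ ⟨K', hmem, ?_⟩
        intro h' hh' y
        have h2 := hinv h' hh' (y + h)
        show s (y + h' + h) = s (y + h)
        rw [← h2]
        congr 1
        abel
      rw [h0, Finset.sum_eq_zero h1]
      simp

theorem mm_of_opT {α : Type} (Mm : (List α → ℤ) → Prop)
    (hadd : ∀ f g, Mm f → Mm g → Mm (fun w => f w + g w))
    (hsmul : ∀ (k : ℤ) f, Mm f → Mm (fun w => k * f w))
    (hdiv : ∀ (k : ℕ) f, 0 < k → Mm (fun w => (k : ℤ) * f w) → Mm f)
    (F : A → List α → ℤ) (K : Finset A) (hK : K.Nonempty)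
    (hlow : ∀ y, Mm (fun w => ∑ h ∈ K, F (y + h) w)) (lam : A → ℤ)
    (h : Mm (fun w => ∑ y, opT K lam y * F y w)) : Mm (fun w => ∑ y, lam y * F y w) := by
  classical
  have hzero : Mm (fun _ => 0) := by
    have h0 := hsmul 0 _ (hlow 0)
    have e : (fun w : List α => (0 : ℤ) * ∑ h ∈ K, F (0 + h) w) = fun _ => 0 := by
      funext w
      simp
    rwa [e] at h0
  have hR : ∀ S : Finset A, Mm (fun w => ∑ y ∈ S, lam y * ∑ h ∈ K, F (y + h) w) := by
    intro S
    induction S using Finset.induction_on with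
    | empty => simpa using hzero
    | insert a S ha ih =>
      have h1 := hadd _ _ (hsmul (lam a) _ (hlow a)) ih
      have e : (fun w : List α => ∑ y ∈ insert a S, lam y * ∑ h ∈ K, F (y + h) w)
          = fun w => lam a * ∑ h ∈ K, F (a + h) w
              + ∑ y ∈ S, lam y * ∑ h ∈ K, F (y + h) w := by
        funext w
        rw [Finset.sum_insert ha]
      rw [e]
      exact h1
  have h2 := hadd _ _ h (hR Finset.univ)
  refine hdiv K.card _ (Finset.card_pos.2 hK) ?_
  have e : (fun w : List α => (K.card : ℤ) * ∑ y, lam y * F y w)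
      = fun w => ∑ y, opT K lam y * F y w + ∑ y, lam y * ∑ h ∈ K, F (y + h) w := by
    funext w
    rw [comb_opT]
    ring
  rw [e]
  exact h2

theorem mm_of_fold {α : Type} (Mm : (List α → ℤ) → Prop)
    (hadd : ∀ f g, Mm f → Mm g → Mm (fun w => f w + g w))
    (hsmul : ∀ (k : ℤ) f, Mm f → Mm (fun w => k * f w))
    (hdiv : ∀ (k : ℕ) f, 0 < k → Mm (fun w => (k : ℤ) * f w) → Mm f)
    (F : A → List α → ℤ) (Ks : List (Finset A))
    (hKs : ∀ K ∈ Ks, K.Nonempty ∧ ∀ y, Mm (fun w => ∑ h ∈ K, F (y + h) w)) (lam0 : A → ℤ)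
    (h : Mm (fun w => ∑ y, (Ks.foldr opT lam0) y * F y w)) :
    Mm (fun w => ∑ y, lam0 y * F y w) := by
  induction Ks with
  | nil => simpa using h
  | cons K Ks ih =>
    simp only [List.foldr_cons] at h
    have hK := hKs K List.mem_cons_self
    exact ih (fun K' hK' => hKs K' (List.mem_cons_of_mem _ hK'))
      (mm_of_opT Mm hadd hsmul hdiv F K hK.1 hK.2 _ h)

end Abstract

/-- The Moebius step (board task D of the positional counting extension). -/
theorem mobius_step {α : Type} {m : ℕ} [NeZero m] (Mm : (List α → ℤ) → Prop)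
    (hadd : ∀ f g, Mm f → Mm g → Mm (fun w => f w + g w))
    (hsmul : ∀ (k : ℤ) f, Mm f → Mm (fun w => k * f w))
    (hdiv : ∀ (k : ℕ) f, 0 < k → Mm (fun w => (k : ℤ) * f w) → Mm f)
    (F : ZMod m → List α → ℤ)
    (hlow : ∀ d (hd : d ∣ m), d < m → ∀ y : ZMod m,
        Mm (fun w => ∑ h ∈ Finset.univ.filter
          (fun h : ZMod m => ZMod.castHom hd (ZMod d) h = 0), F (y + h) w))
    (hprim : ∀ lam : ZMod m → ℤ,
        (∀ s : ZMod m → Bool, (∃ g : ZMod m, g ≠ 0 ∧ ∀ i, s (i + g) = s i) →
            ∑ y, lam y * (if s y = true then 1 else 0) = 0) →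
        Mm (fun w => ∑ y, lam y * F y w)) :
    ∀ x, Mm (F x) := by
  intro x
  classical
  let ker : ℕ → Finset (ZMod m) := fun d => Finset.univ.filter (fun h : ZMod m => d ∣ h.val)
  let Ks : List (Finset (ZMod m)) := ((List.range m).filter (fun d => d ∣ m)).map ker
  have hker : ∀ d (hd : d ∣ m),
      Finset.univ.filter (fun h : ZMod m => ZMod.castHom hd (ZMod d) h = 0) = ker d := by
    intro d hd
    refine Finset.filter_congr (fun h _ => ?_)
    rw [ZMod.castHom_apply, ← ZMod.natCast_val, ZMod.natCast_eq_zero_iff]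
  have hKs : ∀ K ∈ Ks, K.Nonempty ∧ ∀ y, Mm (fun w => ∑ h ∈ K, F (y + h) w) := by
    intro K hK
    obtain ⟨d, hd, rfl⟩ := List.mem_map.1 hK
    rw [List.mem_filter, List.mem_range] at hd
    have hdm : d ∣ m := by simpa using hd.2
    refine ⟨⟨0, by simp [ker]⟩, fun y => ?_⟩
    have h1 := hlow d hdm hd.1 y
    rwa [hker d hdm] at h1
  let lam0 : ZMod m → ℤ := Pi.single x 1
  have hx : (fun w => ∑ y, lam0 y * F y w) = F x := by
    funext w
    simp [lam0, Pi.single_apply]
  rw [← hx]
  refine mm_of_fold Mm hadd hsmul hdiv F Ks hKs lam0 (hprim _ ?_)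
  rintro s ⟨g, hg0, hg⟩
  refine phi_fold_eq_zero Ks lam0 s ?_
  have hdm : Nat.gcd g.val m ∣ m := Nat.gcd_dvd_right _ _
  have hgpos : 0 < g.val := by
    rcases Nat.eq_zero_or_pos g.val with h | h
    · exact absurd ((ZMod.val_eq_zero g).1 h) hg0
    · exact h
  have hdlt : Nat.gcd g.val m < m :=
    lt_of_le_of_lt (Nat.le_of_dvd hgpos (Nat.gcd_dvd_left _ _)) (ZMod.val_lt g)
  refine ⟨ker (Nat.gcd g.val m),
    List.mem_map.2 ⟨_, by simp [List.mem_filter, hdlt, hdm], rfl⟩, ?_⟩
  intro h hh y
  have hdh : Nat.gcd g.val m ∣ h.val := by simpa [ker] using hh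
  have hmul : ∀ (k : ℕ) (y : ZMod m), s (y + k • g) = s y := by
    intro k
    induction k with
    | zero => intro y; simp
    | succ k ih => intro y; rw [succ_nsmul, ← add_assoc, hg, ih]
  obtain ⟨q, hq⟩ := hdh
  have hdg : ((Nat.gcd g.val m : ℕ) : ZMod m) = g * ((Nat.gcdA g.val m : ℤ) : ZMod m) := by
    have h1 := congrArg (fun z : ℤ => (z : ZMod m)) (Nat.gcd_eq_gcd_ab g.val m)
    simp only [Int.cast_add, Int.cast_mul, Int.cast_natCast, ZMod.natCast_zmod_val,
      ZMod.natCast_self, zero_mul, add_zero] at h1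
    exact h1
  have hh' : h = ((((Nat.gcdA g.val m : ℤ) : ZMod m) * (q : ZMod m)).val) • g := by
    rw [nsmul_eq_mul, ZMod.natCast_zmod_val]
    calc h = ((h.val : ℕ) : ZMod m) := (ZMod.natCast_zmod_val h).symm
      _ = ((Nat.gcd g.val m * q : ℕ) : ZMod m) := by rw [hq]
      _ = _ := by rw [Nat.cast_mul, hdg]; ring
  rw [hh']
  exact hmul _ y

end Vale.Agent.Helper28.P329Mobius
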