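import Vale.Agent.Helper10.PMDefs

/-!
# Counter-free automata with marked transitions: three general lemmas

* `gOpt_cf_mono`   : marking more transitions keeps the cut automaton counter-free;
* `cf_of_base`     : counter-freeness from the cut at the arrivals to a base state together
                     with the closed runs at the base state;
* `base_of_height` : closed runs at a base state from a height function.
-/

namespace Vale.Agent.Helper28.P329Base

open Vale.Agent.Helper10

section mono

variable {I α : Type} (δ : I → α → I)

theorem gOpt_run_mono (b1 b2 : I → α → Bool) (h : ∀ i a, b1 i a = true → b2 i a = true) :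
    ∀ (w : List α) (i j : I), run (gOpt δ b2) (some i) w = some j →
      run (gOpt δ b1) (some i) w = some j := by
  intro w
  induction w with
  | nil =>
    intro i j hj
    simpa using hj
  | cons a w ih =>
    intro i j hj
    rw [run_cons] at hj ⊢
    by_cases hb : b2 i a = true
    · have e : gOpt δ b2 (some i) a = none := by simp [gOpt, hb]
      rw [e, gOpt_none] at hj
      exact absurd hj (by simp)
    · have e2 : gOpt δ b2 (some i) a = some (δ i a) := by simp [gOpt, hb]
      have hb1 : ¬ b1 i a = true := fun h1 => hb (h i a h1)
      have e1 : gOpt δ b1 (some i) a = some (δ i a) := by simp [gOpt, hb1]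
      rw [e2] at hj
      rw [e1]
      exact ih _ _ hj

theorem gOpt_iter_mono (b1 b2 : I → α → Bool) (h : ∀ i a, b1 i a = true → b2 i a = true)
    (w : List α) (i : I) : ∀ (m : ℕ) (j : I),
      (fun q => run (gOpt δ b2) q w)^[m] (some i) = some j →
      (fun q => run (gOpt δ b1) q w)^[m] (some i) = some j := by
  intro m
  induction m with
  | zero =>
    intro j hj
    simpa using hj
  | succ m ih =>
    intro j hj
    rw [Function.iterate_succ_apply'] at hj ⊢
    cases h1 : (fun q => run (gOpt δ b2) q w)^[m] (some i) with
    | none =>
      rw [h1] at hj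
      have hj' : run (gOpt δ b2) none w = some j := hj
      rw [gOpt_none] at hj'
      exact absurd hj' (by simp)
    | some j' =>
      rw [h1] at hj
      have hj' : run (gOpt δ b2) (some j') w = some j := hj
      rw [ih j' h1]
      exact gOpt_run_mono δ b1 b2 h w _ _ hj'

/-- marking more transitions keeps the cut automaton counter-free -/
theorem gOpt_cf_mono (b1 b2 : I → α → Bool)
    (h : ∀ i a, b1 i a = true → b2 i a = true) (hcf : CounterFree (gOpt δ b1)) :
    CounterFree (gOpt δ b2) := by
  intro w q n hn hq
  cases q with
  | none => exact gOpt_none δ b2 w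
  | some i =>
    have h1 := gOpt_iter_mono δ b1 b2 h w i n i hq
    have h2 : run (gOpt δ b1) (some i) w = some i := hcf w (some i) n hn h1
    cases h3 : run (gOpt δ b2) (some i) w with
    | none =>
      exfalso
      obtain ⟨k, rfl⟩ : ∃ k, n = k + 1 := ⟨n - 1, by omega⟩
      rw [Function.iterate_succ_apply] at hq
      have hq' : (fun q => run (gOpt δ b2) q w)^[k] (run (gOpt δ b2) (some i) w) = some i := hq
      rw [h3, gOpt_iter_none] at hq'
      exact absurd hq' (by simp)
    | some j =>
      have h4 := gOpt_run_mono δ b1 b2 h w i j h3
      rw [h2] at h4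
      exact h4.symm

end mono

section base

theorem iter_comm_aux {X : Type} (f : X → X) (a n : ℕ) (x : X) (hx : f^[n] x = x) :
    f^[n] (f^[a] x) = f^[a] x := by
  rw [← Function.iterate_add_apply, Nat.add_comm, Function.iterate_add_apply, hx]

theorem conj_iter {Q α : Type} (ε : Q → α → Q) (wa wb : List α) (x : Q) :
    ∀ k, (fun y => run ε y (wb ++ wa))^[k] (run ε x wa)
      = run ε ((fun y => run ε y (wa ++ wb))^[k] x) wa := by
  intro k
  induction k with
  | zero => rfl
  | succ k ih =>
    rw [Function.iterate_succ_apply', ih, Function.iterate_succ_apply']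
    simp only [run_append]

/-- if a cycle of `w` passes through a state `p` at which the rotated word has no proper
cycle, then the cycle of `w` is trivial -/
theorem cycle_of_visit {Q α : Type} (ε : Q → α → Q) (w wa wb : List α) (hw : w = wa ++ wb)
    (s p : Q) (a n : ℕ) (ha : a < n)
    (hs : (fun x => run ε x w)^[n] s = s)
    (hvis : run ε ((fun x => run ε x w)^[a] s) wa = p)
    (hfix : (fun y => run ε y (wb ++ wa))^[n] p = p → run ε p (wb ++ wa) = p) :
    run ε s w = s := by
  subst hw
  subst hvis
  have hc : (fun y => run ε y (wb ++ wa))^[n]
      (run ε ((fun x => run ε x (wa ++ wb))^[a] s) wa)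
      = run ε ((fun x => run ε x (wa ++ wb))^[a] s) wa := by
    rw [conj_iter ε wa wb _ n, iter_comm_aux _ a n s hs]
  have hfx := hfix hc
  have e1 : run ε ((fun x => run ε x (wa ++ wb))^[a + 1] s) wa
      = run ε ((fun x => run ε x (wa ++ wb))^[a] s) wa := by
    rw [Function.iterate_succ_apply']
    have e : run ε ((fun x => run ε x (wa ++ wb)) ((fun x => run ε x (wa ++ wb))^[a] s)) wa
        = run ε (run ε ((fun x => run ε x (wa ++ wb))^[a] s) wa) (wb ++ wa) := by
      simp only [run_append]
    rw [e]
    exact hfx
  have e2 : (fun x => run ε x (wa ++ wb))^[a + 2] s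
      = (fun x => run ε x (wa ++ wb))^[a + 1] s := by
    have h1 : (fun x => run ε x (wa ++ wb))^[a + 2] s
        = run ε (run ε ((fun x => run ε x (wa ++ wb))^[a + 1] s) wa) wb := by
      rw [Function.iterate_succ_apply']
      simp only [run_append]
    have h2 : (fun x => run ε x (wa ++ wb))^[a + 1] s
        = run ε (run ε ((fun x => run ε x (wa ++ wb))^[a] s) wa) wb := by
      rw [Function.iterate_succ_apply']
      simp only [run_append]
    rw [h1, e1, ← h2]
  have e3 : (fun x => run ε x (wa ++ wb))^[n + 1] s = (fun x => run ε x (wa ++ wb))^[n] s := by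
    have h1 : (fun x => run ε x (wa ++ wb))^[n - a - 1]
        ((fun x => run ε x (wa ++ wb))^[a + 2] s)
        = (fun x => run ε x (wa ++ wb))^[n + 1] s := by
      rw [← Function.iterate_add_apply]
      have : n - a - 1 + (a + 2) = n + 1 := by omega
      rw [this]
    have h2 : (fun x => run ε x (wa ++ wb))^[n - a - 1]
        ((fun x => run ε x (wa ++ wb))^[a + 1] s)
        = (fun x => run ε x (wa ++ wb))^[n] s := by
      rw [← Function.iterate_add_apply]
      have : n - a - 1 + (a + 1) = n := by omega
      rw [this]
    rw [← h1, ← h2, e2]
  have e4 : (fun x => run ε x (wa ++ wb))^[n + 1] s = run ε s (wa ++ wb) := by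
    rw [Function.iterate_succ_apply', hs]
  rw [← e4, e3, hs]

variable {I α : Type} (δ : I → α → I)

theorem alive_of_iter (bad : I → α → Bool) (w : List α) (s : Option I) (n : ℕ) (q : I)
    (hq : (fun x => run (gOpt δ bad) x w)^[n] s = some q) :
    ∀ a, a ≤ n → ∃ j, (fun x => run (gOpt δ bad) x w)^[a] s = some j := by
  intro a ha
  cases h1 : (fun x => run (gOpt δ bad) x w)^[a] s with
  | some j => exact ⟨j, rfl⟩
  | none =>
    exfalso
    have e : n = (n - a) + a := by omega
    rw [e, Function.iterate_add_apply, h1, gOpt_iter_none] at hq
    exact absurd hq (by simp)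

/-- a run which never arrives at `i0` is a run of the automaton cut at `bad0` -/
theorem run_cut_eq (bad bad0 : I → α → Bool) (i0 : I)
    (h0 : ∀ i a, bad0 i a = true → bad i a = true ∨ δ i a = i0) :
    ∀ (u : List α) (i j : I), run (gOpt δ bad) (some i) u = some j →
      (∀ u1 u2, u = u1 ++ u2 → u1 ≠ [] → run (gOpt δ bad) (some i) u1 ≠ some i0) →
      run (gOpt δ bad0) (some i) u = some j := by
  intro u
  induction u with
  | nil =>
    intro i j hj _
    simpa using hj
  | cons a u ih =>
    intro i j hj hpre
    rw [run_cons] at hj ⊢
    by_cases hb : bad i a = true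
    · have e : gOpt δ bad (some i) a = none := by simp [gOpt, hb]
      rw [e, gOpt_none] at hj
      exact absurd hj (by simp)
    · have e : gOpt δ bad (some i) a = some (δ i a) := by simp [gOpt, hb]
      have hne : δ i a ≠ i0 := by
        intro heq
        have h1 := hpre [a] u rfl (by simp)
        apply h1
        rw [run_cons, run_nil, e, heq]
      have hb0 : ¬ bad0 i a = true := by
        intro hb0
        rcases h0 i a hb0 with h1 | h1
        · exact hb h1
        · exact hne h1
      have e0 : gOpt δ bad0 (some i) a = some (δ i a) := by simp [gOpt, hb0]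
      rw [e] at hj
      rw [e0]
      apply ih _ _ hj
      intro u1 u2 hu hu1
      have h1 := hpre (a :: u1) u2 (by rw [hu]; rfl) (by simp)
      rw [run_cons, e] at h1
      exact h1

/-- counter-freeness from the cut at the arrivals to a base state `i0` (the transitions
marked by `bad0` are marked by `bad` or lead to `i0`) and the closed runs at `i0` -/
theorem cf_of_base (bad bad0 : I → α → Bool) (i0 : I)
    (h0 : ∀ i a, bad0 i a = true → bad i a = true ∨ δ i a = i0)
    (hcut : CounterFree (gOpt δ bad0))
    (hb : ∀ (u : List α) (n : ℕ), 0 < n →
      (fun x => run (gOpt δ bad) x u)^[n] (some i0) = some i0 →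
      run (gOpt δ bad) (some i0) u = some i0) :
    CounterFree (gOpt δ bad) := by
  intro w s n hn hs
  cases s with
  | none => exact gOpt_none δ bad w
  | some q =>
    have halive := alive_of_iter δ bad w (some q) n q hs
    by_cases hv : ∃ a, a < n ∧ ∃ wa wb, w = wa ++ wb ∧ wa ≠ [] ∧
        run (gOpt δ bad) ((fun x => run (gOpt δ bad) x w)^[a] (some q)) wa = some i0
    · obtain ⟨a, ha, wa, wb, hw, -, hvis⟩ := hv
      exact cycle_of_visit (gOpt δ bad) w wa wb hw (some q) (some i0) a n ha hs hvis
        (hb (wb ++ wa) n hn)
    · have hv' : ∀ a, a < n → ∀ wa wb, w = wa ++ wb → wa ≠ [] →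
          run (gOpt δ bad) ((fun x => run (gOpt δ bad) x w)^[a] (some q)) wa ≠ some i0 := by
        intro a ha wa wb hw hwa hrun
        exact hv ⟨a, ha, wa, wb, hw, hwa, hrun⟩
      have hind : ∀ a, a ≤ n → (fun x => run (gOpt δ bad0) x w)^[a] (some q)
          = (fun x => run (gOpt δ bad) x w)^[a] (some q) := by
        intro a
        induction a with
        | zero =>
          intro _
          rfl
        | succ a ih =>
          intro ha
          obtain ⟨j, hj⟩ := halive a (by omega)
          obtain ⟨j', hj'⟩ := halive (a + 1) ha
          rw [Function.iterate_succ_apply', hj] at hj'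
          have hj'' : run (gOpt δ bad) (some j) w = some j' := hj'
          have h1 := run_cut_eq δ bad bad0 i0 h0 w j j' hj'' (by
            intro u1 u2 hu hu1
            have h2 := hv' a (by omega) u1 u2 hu hu1
            rw [hj] at h2
            exact h2)
          rw [Function.iterate_succ_apply', Function.iterate_succ_apply', ih (by omega), hj]
          show run (gOpt δ bad0) (some j) w = run (gOpt δ bad) (some j) w
          rw [h1, hj'']
      have h1 := hind n le_rfl
      rw [hs] at h1
      have h2 := hcut w (some q) n hn h1
      have h3 := hind 1 (by omega)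
      simp only [Function.iterate_one] at h3
      rw [← h3]
      exact h2

end base

section height

variable {I α : Type} (ε : Option I → α → Option I) (hnone : ∀ a, ε none a = none)

include hnone in
theorem run_none_of (u : List α) : run ε none u = none := by
  induction u with
  | nil => rfl
  | cons a u ih =>
    rw [run_cons, hnone]
    exact ih

include hnone in
theorem iter_none_of (u : List α) (m : ℕ) : (fun x => run ε x u)^[m] none = none := by
  induction m with
  | zero => rfl
  | succ m ih =>
    rw [Function.iterate_succ_apply, run_none_of ε hnone, ih]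

include hnone in
theorem D_closed (D : I → Prop) (hD : ∀ i a j, D i → ε (some i) a = some j → D j) :
    ∀ (u : List α) (i j : I), D i → run ε (some i) u = some j → D j := by
  intro u
  induction u with
  | nil =>
    intro i j hi hj
    have e : i = j := by simpa using hj
    exact e ▸ hi
  | cons a u ih =>
    intro i j hi hj
    rw [run_cons] at hj
    cases hk : ε (some i) a with
    | none =>
      rw [hk, run_none_of ε hnone] at hj
      exact absurd hj (by simp)
    | some k =>
      rw [hk] at hj
      exact ih k j (hD i a k hi hk) hj

include hnone in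
theorem G_run (G D : I → Prop) (h : I → ℤ) (sg : α → ℤ)
    (hD : ∀ i a j, D i → ε (some i) a = some j → D j)
    (hG : ∀ i a j, G i → ε (some i) a = some j → D j ∨ (G j ∧ h j = h i + sg a)) :
    ∀ (u : List α) (i j : I), G i → run ε (some i) u = some j →
      D j ∨ (G j ∧ h j = h i + (u.map sg).sum) := by
  intro u
  induction u with
  | nil =>
    intro i j hi hj
    have e : i = j := by simpa using hj
    subst e
    right
    exact ⟨hi, by simp⟩
  | cons a u ih =>
    intro i j hi hj
    rw [run_cons] at hj
    cases hk : ε (some i) a with
    | none =>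
      rw [hk, run_none_of ε hnone] at hj
      exact absurd hj (by simp)
    | some k =>
      rw [hk] at hj
      rcases hG i a k hi hk with hDk | ⟨hGk, hhk⟩
      · left
        exact D_closed ε hnone D hD u k j hDk hj
      · rcases ih k j hGk hj with h1 | ⟨h1, h2⟩
        · left
          exact h1
        · right
          refine ⟨h1, ?_⟩
          rw [h2, hhk, List.map_cons, List.sum_cons]
          ring

include hnone in
/-- closed runs at the base state `i0` from a height function: on the good states `G` the
height changes by the sign of the letter, the bad states `D` are never left, and `i0` is the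
only good state of its height -/
theorem base_of_height (i0 : I) (G D : I → Prop) (h : I → ℤ) (sg : α → ℤ)
    (hG0 : G i0) (hD0 : ¬ D i0)
    (hD : ∀ i a j, D i → ε (some i) a = some j → D j)
    (hG : ∀ i a j, G i → ε (some i) a = some j → D j ∨ (G j ∧ h j = h i + sg a))
    (hinj : ∀ i, G i → h i = h i0 → i = i0) :
    ∀ (u : List α) (n : ℕ), 0 < n → (fun x => run ε x u)^[n] (some i0) = some i0 →
      run ε (some i0) u = some i0 := by
  intro u n hn hcyc
  have halive : ∀ a, a ≤ n → ∃ j, (fun x => run ε x u)^[a] (some i0) = some j := by
    intro a ha
    cases h1 : (fun x => run ε x u)^[a] (some i0) with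
    | some j => exact ⟨j, rfl⟩
    | none =>
      exfalso
      have e : n = (n - a) + a := by omega
      rw [e, Function.iterate_add_apply, h1, iter_none_of ε hnone] at hcyc
      exact absurd hcyc (by simp)
  have hinv : ∀ a, a ≤ n → ∀ j, (fun x => run ε x u)^[a] (some i0) = some j →
      D j ∨ (G j ∧ h j = h i0 + (a : ℤ) * (u.map sg).sum) := by
    intro a
    induction a with
    | zero =>
      intro _ j hj
      have e : i0 = j := by simpa using hj
      subst e
      right
      exact ⟨hG0, by simp⟩
    | succ a ih =>
      intro ha j hj
      obtain ⟨k, hk⟩ := halive a (by omega)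
      rw [Function.iterate_succ_apply', hk] at hj
      have hj' : run ε (some k) u = some j := hj
      rcases ih (by omega) k hk with h1 | ⟨h1, h2⟩
      · left
        exact D_closed ε hnone D hD u k j h1 hj'
      · rcases G_run ε hnone G D h sg hD hG u k j h1 hj' with h3 | ⟨h3, h4⟩
        · left
          exact h3
        · right
          refine ⟨h3, ?_⟩
          rw [h4, h2]
          push_cast
          ring
  have hS : (u.map sg).sum = 0 := by
    rcases hinv n le_rfl i0 hcyc with h1 | ⟨_, h2⟩
    · exact absurd h1 hD0
    · have h3 : (n : ℤ) * (u.map sg).sum = 0 := by linarith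
      rcases mul_eq_zero.1 h3 with h4 | h4
      · exfalso
        have h5 : (n : ℤ) ≠ 0 := by exact_mod_cast hn.ne'
        exact h5 h4
      · exact h4
  obtain ⟨j1, hj1⟩ := halive 1 (by omega)
  have hj1' : run ε (some i0) u = some j1 := by
    have h1 := hj1
    simp only [Function.iterate_one] at h1
    exact h1
  rcases hinv 1 (by omega) j1 hj1 with h1 | ⟨h1, h2⟩
  · exfalso
    have hDall : ∀ a, a + 1 ≤ n → ∀ j,
        (fun x => run ε x u)^[a + 1] (some i0) = some j → D j := by
      intro a
      induction a with
      | zero =>
        intro _ j hj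
        simp only [Nat.zero_add, Function.iterate_one] at hj
        have e : j1 = j := Option.some.inj (hj1'.symm.trans hj)
        exact e ▸ h1
      | succ a ih =>
        intro ha j hj
        obtain ⟨k, hk⟩ := halive (a + 1) (by omega)
        rw [Function.iterate_succ_apply', hk] at hj
        have hj' : run ε (some k) u = some j := hj
        exact D_closed ε hnone D hD u k j (ih (by omega) k hk) hj'
    obtain ⟨m, rfl⟩ : ∃ m, n = m + 1 := ⟨n - 1, by omega⟩
    exact hD0 (hDall m le_rfl i0 hcyc)
  · have h3 : h j1 = h i0 := by
      rw [h2, hS]
      simp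
    have h4 := hinj j1 h1 h3
    rw [hj1', h4]

end height

end Vale.Agent.Helper28.P329Base
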