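import Mathlib

open MeasureTheory Finset

namespace Vale.Agent.Helper28

/-- Chung-Erdos inequality for finitely many measurable sets in a finite measure space. -/
theorem chung_erdos {Ω : Type*} [MeasurableSpace Ω] (μ : Measure Ω) [IsFiniteMeasure μ]
    {ι : Type*} (s : Finset ι) (A : ι → Set Ω) (hA : ∀ i ∈ s, MeasurableSet (A i)) :
    (∑ i ∈ s, μ.real (A i)) ^ 2 ≤
      μ.real (⋃ i ∈ s, A i) * ∑ i ∈ s, ∑ j ∈ s, μ.real (A i ∩ A j) := by
  classical
  set U : Set Ω := ⋃ i ∈ s, A i with hU
  have hUm : MeasurableSet U := Finset.measurableSet_biUnion s hA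
  set f : Ω → ℝ := fun ω => ∑ i ∈ s, (A i).indicator (1 : Ω → ℝ) ω with hf
  have hint : ∀ i ∈ s, Integrable ((A i).indicator (1 : Ω → ℝ)) μ := fun i hi =>
    (integrable_const (1 : ℝ)).indicator (hA i hi)
  have hfint : Integrable f μ := integrable_finsetSum s hint
  have hf1 : ∫ ω, f ω ∂μ = ∑ i ∈ s, μ.real (A i) := by
    rw [hf, integral_finsetSum s hint]
    exact Finset.sum_congr rfl fun i hi => integral_indicator_one (hA i hi)
  have hsq : ∀ ω, f ω * f ω = ∑ i ∈ s, ∑ j ∈ s, (A i ∩ A j).indicator (1 : Ω → ℝ) ω := by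
    intro ω
    simp only [hf, Finset.sum_mul_sum]
    refine Finset.sum_congr rfl fun i _ => Finset.sum_congr rfl fun j _ => ?_
    rw [Set.inter_indicator_one]; rfl
  have hint2 : ∀ i ∈ s, ∀ j ∈ s, Integrable ((A i ∩ A j).indicator (1 : Ω → ℝ)) μ :=
    fun i hi j hj => (integrable_const (1 : ℝ)).indicator ((hA i hi).inter (hA j hj))
  have hf2int : Integrable (fun ω => f ω * f ω) μ := by
    simp_rw [hsq]
    exact integrable_finsetSum s fun i hi => integrable_finsetSum s fun j hj => hint2 i hi j hj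
  have hf2 : ∫ ω, f ω * f ω ∂μ = ∑ i ∈ s, ∑ j ∈ s, μ.real (A i ∩ A j) := by
    simp_rw [hsq]
    rw [integral_finsetSum s fun i hi => integrable_finsetSum s fun j hj => hint2 i hi j hj]
    refine Finset.sum_congr rfl fun i hi => ?_
    rw [integral_finsetSum s fun j hj => hint2 i hi j hj]
    exact Finset.sum_congr rfl fun j hj => integral_indicator_one ((hA i hi).inter (hA j hj))
  have hUint : Integrable (U.indicator (1 : Ω → ℝ)) μ := (integrable_const (1 : ℝ)).indicator hUm
  have hU1 : ∫ ω, U.indicator (1 : Ω → ℝ) ω ∂μ = μ.real U := integral_indicator_one hUm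
  -- f vanishes off U
  have hfU : ∀ ω, f ω * U.indicator (1 : Ω → ℝ) ω = f ω := by
    intro ω
    by_cases hω : ω ∈ U
    · simp [Set.indicator_of_mem hω]
    · have : f ω = 0 := by
        simp only [hf]
        refine Finset.sum_eq_zero fun i hi => ?_
        have : ω ∉ A i := fun h => hω (Set.mem_biUnion hi h)
        simp [Set.indicator_of_notMem this]
      simp [this]
  have hUU : ∀ ω, U.indicator (1 : Ω → ℝ) ω * U.indicator (1 : Ω → ℝ) ω
      = U.indicator (1 : Ω → ℝ) ω := by
    intro ω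
    by_cases hω : ω ∈ U
    · simp [Set.indicator_of_mem hω]
    · simp [Set.indicator_of_notMem hω]
  -- the quadratic in t is nonnegative
  have key : ∀ t : ℝ, 0 ≤ μ.real U * (t * t) + (-2 * ∑ i ∈ s, μ.real (A i)) * t
      + ∑ i ∈ s, ∑ j ∈ s, μ.real (A i ∩ A j) := by
    intro t
    have h0 : 0 ≤ ∫ ω, (f ω - t * U.indicator (1 : Ω → ℝ) ω) ^ 2 ∂μ :=
      integral_nonneg fun ω => sq_nonneg _
    have hexp : ∀ ω, (f ω - t * U.indicator (1 : Ω → ℝ) ω) ^ 2
        = f ω * f ω - 2 * t * f ω + t * t * U.indicator (1 : Ω → ℝ) ω := by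
      intro ω
      have h1 := hfU ω
      have h2 := hUU ω
      calc (f ω - t * U.indicator (1 : Ω → ℝ) ω) ^ 2
          = f ω * f ω - 2 * t * (f ω * U.indicator (1 : Ω → ℝ) ω)
            + t * t * (U.indicator (1 : Ω → ℝ) ω * U.indicator (1 : Ω → ℝ) ω) := by ring
        _ = _ := by rw [h1, h2]
    simp_rw [hexp] at h0
    have i0 : Integrable (fun ω => 2 * t * f ω) μ := hfint.const_mul (2 * t)
    have i1 : Integrable (fun ω => f ω * f ω - 2 * t * f ω) μ := hf2int.sub i0
    have i2 : Integrable (fun ω => t * t * U.indicator (1 : Ω → ℝ) ω) μ := hUint.const_mul (t * t)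
    rw [integral_add i1 i2, integral_sub hf2int i0, integral_const_mul, integral_const_mul,
      hf2, hf1, hU1] at h0
    linarith
  have hd := discrim_le_zero key
  unfold discrim at hd
  nlinarith [hd]

end Vale.Agent.Helper28
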