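import Mathlib

open Finset

namespace Vale.Agent.Helper28

/-- The number of integers in an open real interval of half-length `ρ ≥ 0` is at most `2ρ+1`. -/
theorem card_int_near (c ρ : ℝ) (hρ : 0 ≤ ρ) (S : Finset ℤ) (hS : ∀ n ∈ S, |c - (n : ℝ)| < ρ) :
    (S.card : ℝ) ≤ 2 * ρ + 1 := by
  have hsub : S ⊆ Finset.Ioo ⌊c - ρ⌋ ⌈c + ρ⌉ := by
    intro n hn
    have h := abs_lt.mp (hS n hn)
    rw [Finset.mem_Ioo]
    constructor
    · have h1 : ((⌊c - ρ⌋ : ℤ) : ℝ) ≤ c - ρ := Int.floor_le _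
      have : ((⌊c - ρ⌋ : ℤ) : ℝ) < (n : ℝ) := by linarith
      exact_mod_cast this
    · have h1 : c + ρ ≤ ((⌈c + ρ⌉ : ℤ) : ℝ) := Int.le_ceil _
      have : (n : ℝ) < ((⌈c + ρ⌉ : ℤ) : ℝ) := by linarith
      exact_mod_cast this
  have hcard := Finset.card_le_card hsub
  rw [Int.card_Ioo] at hcard
  have h1 : ((⌈c + ρ⌉ : ℤ) : ℝ) < c + ρ + 1 := Int.ceil_lt_add_one _
  have h2 : c - ρ - 1 < ((⌊c - ρ⌋ : ℤ) : ℝ) := Int.sub_one_lt_floor _
  by_cases hpos : 0 ≤ ⌈c + ρ⌉ - ⌊c - ρ⌋ - 1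
  · have h3 : ((S.card : ℕ) : ℤ) ≤ ⌈c + ρ⌉ - ⌊c - ρ⌋ - 1 := by
      have := Int.toNat_of_nonneg hpos
      omega
    have h4 : (S.card : ℝ) ≤ ((⌈c + ρ⌉ : ℤ) : ℝ) - ((⌊c - ρ⌋ : ℤ) : ℝ) - 1 := by
      exact_mod_cast h3
    linarith
  · have h3 : (⌈c + ρ⌉ - ⌊c - ρ⌋ - 1).toNat = 0 := by
      apply Int.toNat_eq_zero.mpr; omega
    rw [h3] at hcard
    have h4 : S.card = 0 := by omega
    rw [h4]; simp; linarith

/-- Counting bound: for coprime `q, r`, the number of `j < q` such that `t + r j / q` is within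
`ε` of an integer is at most `2 ε q + 1`. -/
theorem count_bound (q r : ℕ) (hq : 0 < q) (hqr : Nat.Coprime q r) (t ε : ℝ) (hε : 0 ≤ ε)
    (J : Finset ℕ) (hJq : ∀ j ∈ J, j < q)
    (hex : ∀ j ∈ J, ∃ m : ℤ, |t + (r : ℝ) * (j : ℝ) / (q : ℝ) - (m : ℝ)| < ε) :
    (J.card : ℝ) ≤ 2 * ε * q + 1 := by
  classical
  have hqR : (0 : ℝ) < (q : ℝ) := by exact_mod_cast hq
  let g : ℕ → ℤ := fun j =>
    if h : ∃ m : ℤ, |t + (r : ℝ) * (j : ℝ) / (q : ℝ) - (m : ℝ)| < ε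
    then (q : ℤ) * h.choose - (r : ℤ) * (j : ℤ) else 0
  have hg : ∀ j ∈ J, |(q : ℝ) * t - ((g j : ℤ) : ℝ)| < (q : ℝ) * ε := by
    intro j hj
    have h := hex j hj
    have hgj : g j = (q : ℤ) * h.choose - (r : ℤ) * (j : ℤ) := by
      simp only [g]; rw [dif_pos h]
    have hm := h.choose_spec
    rw [hgj]
    push_cast
    have e : (q : ℝ) * t - ((q : ℝ) * (h.choose : ℝ) - (r : ℝ) * (j : ℝ))
        = (q : ℝ) * (t + (r : ℝ) * (j : ℝ) / (q : ℝ) - (h.choose : ℝ)) := by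
      field_simp
      ring
    rw [e, abs_mul, abs_of_pos hqR]
    exact mul_lt_mul_of_pos_left hm hqR
  have hinj : Set.InjOn g (J : Set ℕ) := by
    intro j hj j' hj' hgg
    have hj1 : j < q := hJq j hj
    have hj1' : j' < q := hJq j' hj'
    have h := hex j hj
    have h' := hex j' hj'
    have hgj : g j = (q : ℤ) * h.choose - (r : ℤ) * (j : ℤ) := by
      simp only [g]; rw [dif_pos h]
    have hgj' : g j' = (q : ℤ) * h'.choose - (r : ℤ) * (j' : ℤ) := by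
      simp only [g]; rw [dif_pos h']
    rw [hgj, hgj'] at hgg
    -- q ∣ r * (j - j')
    have hdvd : (q : ℤ) ∣ (r : ℤ) * ((j : ℤ) - (j' : ℤ)) := by
      refine ⟨h.choose - h'.choose, ?_⟩
      linarith
    have hcop : IsCoprime (q : ℤ) (r : ℤ) := by
      exact_mod_cast (Nat.isCoprime_iff_coprime.mpr hqr)
    have hdvd2 : (q : ℤ) ∣ (j : ℤ) - (j' : ℤ) := hcop.dvd_of_dvd_mul_left hdvd
    have habs : |(j : ℤ) - (j' : ℤ)| < (q : ℤ) := by
      rw [abs_lt]; constructor <;> omega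
    have hz : (j : ℤ) - (j' : ℤ) = 0 := Int.eq_zero_of_abs_lt_dvd hdvd2 habs
    omega
  have hcard : J.card = (J.image g).card := (Finset.card_image_of_injOn hinj).symm
  have hb := card_int_near ((q : ℝ) * t) ((q : ℝ) * ε) (by positivity) (J.image g) (by
    intro n hn
    obtain ⟨j, hj, rfl⟩ := Finset.mem_image.mp hn
    exact hg j hj)
  rw [hcard]
  calc ((J.image g).card : ℝ) ≤ 2 * ((q : ℝ) * ε) + 1 := hb
    _ = 2 * ε * q + 1 := by ring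

end Vale.Agent.Helper28
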