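import Mathlib
import Vale.Agent.Helper28.ChungErdos
import Vale.Agent.Helper28.Count

open MeasureTheory Set Filter

namespace Vale.Agent.Helper28

/-- The set of points `x` of the circle with `‖q x - γ‖ < ε`. -/
def circSet (γ : UnitAddCircle) (q : ℕ) (ε : ℝ) : Set UnitAddCircle :=
  {x | ‖q • x - γ‖ < ε}

theorem circSet_eq_preimage (γ : UnitAddCircle) (q : ℕ) (ε : ℝ) :
    circSet γ q ε = (fun x : UnitAddCircle => (q : ℤ) • x) ⁻¹' Metric.ball γ ε := by
  ext x
  simp [circSet, dist_eq_norm]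

theorem measurableSet_circSet (γ : UnitAddCircle) (q : ℕ) (ε : ℝ) :
    MeasurableSet (circSet γ q ε) := by
  rw [circSet_eq_preimage]
  exact (continuous_zsmul (q : ℤ)).measurable Metric.isOpen_ball.measurableSet

theorem volume_circSet (γ : UnitAddCircle) {q : ℕ} (hq : 0 < q) (ε : ℝ) :
    volume (circSet γ q ε) = ENNReal.ofReal (min 1 (2 * ε)) := by
  rw [circSet_eq_preimage]
  have hmp : MeasurePreserving (fun x : UnitAddCircle => (q : ℤ) • x) volume volume :=
    Measure.measurePreserving_zsmul volume (by exact_mod_cast hq.ne')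
  rw [hmp.measure_preimage Metric.isOpen_ball.measurableSet.nullMeasurableSet]
  rw [← measure_congr (AddCircle.closedBall_ae_eq_ball (x := γ) (ε := ε))]
  exact AddCircle.volume_closedBall 1 ε

theorem mem_circSet_coe (g s : ℝ) (q : ℕ) (ε : ℝ) :
    ((s : ℝ) : UnitAddCircle) ∈ circSet (g : UnitAddCircle) q ε ↔
      ∃ m : ℤ, |(q : ℝ) * s - g - (m : ℝ)| < ε := by
  have e : q • ((s : ℝ) : UnitAddCircle) - (g : UnitAddCircle)
      = (((q : ℝ) * s - g : ℝ) : UnitAddCircle) := by
    rw [AddCircle.coe_sub, ← nsmul_eq_mul, AddCircle.coe_nsmul]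
  simp only [circSet, Set.mem_ofPred_eq]
  rw [e, UnitAddCircle.norm_eq]
  constructor
  · intro h
    exact ⟨round ((q : ℝ) * s - g), h⟩
  · rintro ⟨m, hm⟩
    exact lt_of_le_of_lt (round_le _ m) hm

end Vale.Agent.Helper28

namespace Vale.Agent.Helper28

/-- If every point of `E` lies in at most `K` of the sets `T j`, then
`∑ j, μ (E ∩ T j) ≤ K * μ E`. -/
theorem sum_measure_inter_le {Ω ι : Type*} [MeasurableSpace Ω] (μ : Measure Ω) (E : Set Ω)
    (hE : MeasurableSet E) (s : Finset ι) (T : ι → Set Ω) (hT : ∀ j ∈ s, MeasurableSet (T j))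
    (K : ℕ) (hK : ∀ x ∈ E, ∀ J : Finset ι, J ⊆ s → (∀ j ∈ J, x ∈ T j) → J.card ≤ K) :
    ∑ j ∈ s, μ (E ∩ T j) ≤ K * μ E := by
  classical
  have h1 : ∀ j ∈ s, μ (E ∩ T j) = ∫⁻ x in E, (T j).indicator 1 x ∂μ := by
    intro j hj
    rw [lintegral_indicator_one (hT j hj), Measure.restrict_apply (hT j hj), inter_comm]
  rw [Finset.sum_congr rfl h1, ← lintegral_finsetSum s
    (fun j hj => (measurable_one.indicator (hT j hj)))]
  calc ∫⁻ x in E, ∑ j ∈ s, (T j).indicator (1 : Ω → ENNReal) x ∂μ
      ≤ ∫⁻ _ in E, (K : ENNReal) ∂μ := by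
        refine setLIntegral_mono' hE ?_
        intro x hx
        have hsum : ∑ j ∈ s, (T j).indicator (1 : Ω → ENNReal) x
            = ((s.filter (fun j => x ∈ T j)).card : ENNReal) := by
          rw [Finset.card_filter]
          push_cast
          refine Finset.sum_congr rfl fun j _ => ?_
          by_cases h : x ∈ T j <;> simp [h]
        rw [hsum]
        have := hK x hx (s.filter (fun j => x ∈ T j)) (Finset.filter_subset _ _)
          (fun j hj => (Finset.mem_filter.mp hj).2)
        exact_mod_cast this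
    _ = K * μ E := by rw [setLIntegral_const]

/-- Overlap estimate: for coprime `q, r`, the measure of `E_q ∩ E_r` is at most
`μ(E_q) (2 δ + 1/q)`. -/
theorem overlap (γ : UnitAddCircle) (q r : ℕ) (hq : 0 < q) (hqr : Nat.Coprime q r) (ε δ : ℝ)
    (hδ : 0 ≤ δ) :
    volume.real (circSet γ q ε ∩ circSet γ r δ)
      ≤ volume.real (circSet γ q ε) * (2 * δ + 1 / q) := by
  classical
  have hqR : (0 : ℝ) < (q : ℝ) := by exact_mod_cast hq
  obtain ⟨g, rfl⟩ := QuotientAddGroup.mk_surjective γ
  change volume.real (circSet (g : UnitAddCircle) q ε ∩ circSet (g : UnitAddCircle) r δ)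
      ≤ volume.real (circSet (g : UnitAddCircle) q ε) * (2 * δ + 1 / q)
  set E := circSet (g : UnitAddCircle) q ε with hE
  set F := circSet (g : UnitAddCircle) r δ with hF
  let u : UnitAddCircle := (((1 : ℝ) / (q : ℝ) : ℝ) : UnitAddCircle)
  have hu : q • u = 0 := by
    simp only [u]
    rw [← AddCircle.coe_nsmul, nsmul_eq_mul, mul_one_div_cancel hqR.ne']
    exact AddCircle.coe_period (1 : ℝ)
  let T : ℕ → Set UnitAddCircle := fun j => (fun x => x + j • u) ⁻¹' F
  have hFm : MeasurableSet F := measurableSet_circSet _ _ _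
  have hEm : MeasurableSet E := measurableSet_circSet _ _ _
  have hTm : ∀ j, MeasurableSet (T j) := fun j => (measurable_add_const _) hFm
  -- invariance of E
  have hEinv : ∀ j : ℕ, (fun x => x + j • u) ⁻¹' E = E := by
    intro j
    ext x
    simp only [mem_preimage, hE, circSet, Set.mem_ofPred_eq]
    have : q • (x + j • u) = q • x := by
      rw [smul_add, smul_comm q j u, hu, smul_zero, add_zero]
    rw [this]
  have hmeas : ∀ j : ℕ, volume (E ∩ T j) = volume (E ∩ F) := by
    intro j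
    have : E ∩ T j = (fun x => x + j • u) ⁻¹' (E ∩ F) := by
      rw [preimage_inter, hEinv j]
    rw [this, measure_preimage_add_right]
  -- counting
  let K : ℕ := ⌊2 * δ * q + 1⌋₊
  have hKle : (K : ℝ) ≤ 2 * δ * q + 1 := Nat.floor_le (by positivity)
  have hcount : ∀ x ∈ E, ∀ J : Finset ℕ, J ⊆ Finset.range q → (∀ j ∈ J, x ∈ T j) →
      J.card ≤ K := by
    intro x _ J hJ hJT
    obtain ⟨s, rfl⟩ := QuotientAddGroup.mk_surjective x
    apply Nat.le_floor
    refine count_bound q r hq hqr ((r : ℝ) * s - g) δ hδ J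
      (fun j hj => Finset.mem_range.mp (hJ hj)) ?_
    intro j hj
    have h := hJT j hj
    simp only [T, mem_preimage, hF] at h
    have e : ((s : ℝ) : UnitAddCircle) + j • u
        = (((s + (j : ℝ) * (1 / (q : ℝ)) : ℝ)) : UnitAddCircle) := by
      simp only [u]
      rw [AddCircle.coe_add, ← nsmul_eq_mul, AddCircle.coe_nsmul]
    have h' : (((s + (j : ℝ) * (1 / (q : ℝ)) : ℝ)) : UnitAddCircle)
        ∈ circSet (g : UnitAddCircle) r δ := by
      rw [← e]; exact h
    rw [mem_circSet_coe] at h'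
    obtain ⟨m, hm⟩ := h'
    refine ⟨m, ?_⟩
    have e2 : (r : ℝ) * s - g + (r : ℝ) * (j : ℝ) / (q : ℝ) - (m : ℝ)
        = (r : ℝ) * (s + (j : ℝ) * (1 / (q : ℝ))) - g - (m : ℝ) := by
      field_simp
      ring
    rw [e2]; exact hm
  have hsum := sum_measure_inter_le volume E hEm (Finset.range q) T (fun j _ => hTm j) K hcount
  rw [Finset.sum_congr rfl (fun j _ => hmeas j), Finset.sum_const, Finset.card_range,
    nsmul_eq_mul] at hsum
  -- convert to reals
  have hfin1 : volume (E ∩ F) ≠ ⊤ := measure_ne_top _ _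
  have hfin2 : volume E ≠ ⊤ := measure_ne_top _ _
  have hreal : (q : ℝ) * volume.real (E ∩ F) ≤ (K : ℝ) * volume.real E := by
    have := ENNReal.toReal_mono (ENNReal.mul_ne_top (ENNReal.natCast_ne_top K) hfin2) hsum
    simpa [ENNReal.toReal_mul, Measure.real] using this
  have hEnn : 0 ≤ volume.real E := measureReal_nonneg
  have h2 : (q : ℝ) * volume.real (E ∩ F) ≤ (2 * δ * q + 1) * volume.real E :=
    hreal.trans (mul_le_mul_of_nonneg_right hKle hEnn)
  have h3 : volume.real (E ∩ F) ≤ (2 * δ * q + 1) * volume.real E / q := by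
    rw [le_div_iff₀ hqR]; linarith
  calc volume.real (E ∩ F) ≤ (2 * δ * q + 1) * volume.real E / q := h3
    _ = volume.real E * (2 * δ + 1 / q) := by field_simp

end Vale.Agent.Helper28
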