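import Mathlib
import Vale.Agent.Helper28.Count

open Finset

namespace Vale.Agent.Helper28

/-- General counting bound: the number of `j < q` such that `t + r j / q` is within `ε` of an
integer is at most `2 ε q + gcd q r`. -/
theorem count_bound_gcd (q r : ℕ) (hq : 0 < q) (t ε : ℝ) (hε : 0 ≤ ε)
    (J : Finset ℕ) (hJq : ∀ j ∈ J, j < q)
    (hex : ∀ j ∈ J, ∃ m : ℤ, |t + (r : ℝ) * (j : ℝ) / (q : ℝ) - (m : ℝ)| < ε) :
    (J.card : ℝ) ≤ 2 * ε * q + Nat.gcd q r := by
  classical
  set d := Nat.gcd q r with hd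
  have hdpos : 0 < d := Nat.gcd_pos_of_pos_left r hq
  obtain ⟨q', hq'⟩ : d ∣ q := Nat.gcd_dvd_left q r
  obtain ⟨r', hr'⟩ : d ∣ r := Nat.gcd_dvd_right q r
  have hq'pos : 0 < q' := by
    rcases Nat.eq_zero_or_pos q' with h | h
    · rw [h, mul_zero] at hq'; omega
    · exact h
  have hcop : Nat.Coprime q' r' := by
    have h := Nat.coprime_div_gcd_div_gcd (m := q) (n := r) hdpos
    have e1 : q / Nat.gcd q r = q' := by
      rw [← hd]; conv_lhs => rw [hq']
      exact Nat.mul_div_cancel_left q' hdpos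
    have e2 : r / Nat.gcd q r = r' := by
      rw [← hd]; conv_lhs => rw [hr']
      exact Nat.mul_div_cancel_left r' hdpos
    rwa [e1, e2] at h
  have hqR : (0 : ℝ) < (q : ℝ) := by exact_mod_cast hq
  have hq'R : (0 : ℝ) < (q' : ℝ) := by exact_mod_cast hq'pos
  have hdR : (0 : ℝ) < (d : ℝ) := by exact_mod_cast hdpos
  have hqcast : (q : ℝ) = (d : ℝ) * (q' : ℝ) := by rw [hq']; push_cast; ring
  have hrcast : (r : ℝ) = (d : ℝ) * (r' : ℝ) := by rw [hr']; push_cast; ring
  let g : ℕ → ℤ := fun j =>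
    if h : ∃ m : ℤ, |t + (r : ℝ) * (j : ℝ) / (q : ℝ) - (m : ℝ)| < ε
    then (q' : ℤ) * h.choose - (r' : ℤ) * (j : ℤ) else 0
  have hg : ∀ j ∈ J, |(q' : ℝ) * t - ((g j : ℤ) : ℝ)| < (q' : ℝ) * ε := by
    intro j hj
    have h := hex j hj
    have hgj : g j = (q' : ℤ) * h.choose - (r' : ℤ) * (j : ℤ) := by
      simp only [g]; rw [dif_pos h]
    have hm := h.choose_spec
    rw [hgj]
    generalize h.choose = c at hm ⊢
    push_cast
    have e : (q' : ℝ) * t - ((q' : ℝ) * (c : ℝ) - (r' : ℝ) * (j : ℝ))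
        = (q' : ℝ) * (t + (r : ℝ) * (j : ℝ) / (q : ℝ) - (c : ℝ)) := by
      rw [hqcast, hrcast]
      field_simp
      ring
    rw [e, abs_mul, abs_of_pos hq'R]
    exact mul_lt_mul_of_pos_left hm hq'R
  -- fibres have at most d elements
  have hfib : ∀ n ∈ J.image g, (J.filter (fun j => g j = n)).card ≤ d := by
    intro n _
    have hinj : Set.InjOn (fun j : ℕ => j / q') ((J.filter (fun j => g j = n) : Finset ℕ) : Set ℕ) := by
      intro j hj j' hj' hdiv
      have hjJ := (Finset.mem_filter.mp hj).1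
      have hjJ' := (Finset.mem_filter.mp hj').1
      have hgn : g j = n := (Finset.mem_filter.mp hj).2
      have hgn' : g j' = n := (Finset.mem_filter.mp hj').2
      have h := hex j hjJ
      have h' := hex j' hjJ'
      have hgj : g j = (q' : ℤ) * h.choose - (r' : ℤ) * (j : ℤ) := by
        simp only [g]; rw [dif_pos h]
      have hgj' : g j' = (q' : ℤ) * h'.choose - (r' : ℤ) * (j' : ℤ) := by
        simp only [g]; rw [dif_pos h']
      have hgg : (q' : ℤ) * h.choose - (r' : ℤ) * (j : ℤ)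
          = (q' : ℤ) * h'.choose - (r' : ℤ) * (j' : ℤ) := by
        rw [← hgj, ← hgj', hgn, hgn']
      have hdvd : (q' : ℤ) ∣ (r' : ℤ) * ((j : ℤ) - (j' : ℤ)) := by
        refine ⟨h.choose - h'.choose, ?_⟩
        linarith
      have hcopZ : IsCoprime (q' : ℤ) (r' : ℤ) := by
        exact_mod_cast (Nat.isCoprime_iff_coprime.mpr hcop)
      have hdvd2 : (q' : ℤ) ∣ (j : ℤ) - (j' : ℤ) := hcopZ.dvd_of_dvd_mul_left hdvd
      -- j ≡ j' mod q' and same quotient
      have hmod : (j : ℤ) % (q' : ℤ) = (j' : ℤ) % (q' : ℤ) :=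
        Int.emod_eq_emod_iff_emod_sub_eq_zero.mpr (Int.emod_eq_zero_of_dvd hdvd2)
      have hmodN : j % q' = j' % q' := by exact_mod_cast hmod
      have hdivN : j / q' = j' / q' := hdiv
      calc j = q' * (j / q') + j % q' := (Nat.div_add_mod j q').symm
        _ = q' * (j' / q') + j' % q' := by rw [hdivN, hmodN]
        _ = j' := Nat.div_add_mod j' q'
    have hmaps : ∀ j ∈ J.filter (fun j => g j = n), j / q' ∈ Finset.range d := by
      intro j hj
      have hjq := hJq j (Finset.mem_filter.mp hj).1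
      rw [Finset.mem_range, Nat.div_lt_iff_lt_mul hq'pos]
      calc j < q := hjq
        _ = d * q' := hq'
    have := Finset.card_le_card_of_injOn (fun j : ℕ => j / q') hmaps hinj
    rwa [Finset.card_range] at this
  have hcard : J.card ≤ d * (J.image g).card :=
    Finset.card_le_mul_card_image J d hfib
  have hb := card_int_near ((q' : ℝ) * t) ((q' : ℝ) * ε) (by positivity) (J.image g) (by
    intro n hn
    obtain ⟨j, hj, rfl⟩ := Finset.mem_image.mp hn
    exact hg j hj)
  have hcardR : (J.card : ℝ) ≤ (d : ℝ) * ((J.image g).card : ℝ) := by exact_mod_cast hcard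
  calc (J.card : ℝ) ≤ (d : ℝ) * ((J.image g).card : ℝ) := hcardR
    _ ≤ (d : ℝ) * (2 * ((q' : ℝ) * ε) + 1) := mul_le_mul_of_nonneg_left hb hdR.le
    _ = 2 * ε * q + d := by rw [hqcast]; ring

end Vale.Agent.Helper28
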