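import Mathlib
import Vale.Agent.Helper28.Circle

open MeasureTheory Set Filter

namespace Vale.Agent.Helper28

/-- Second-moment bound for a finite pairwise coprime family. -/
theorem finite_bound (γ : UnitAddCircle) (ψ : ℕ → ℝ) (hhalf : ∀ q, ψ q ≤ 1 / 2)
    (hcop : ∀ q r : ℕ, 0 < q → 0 < r → q ≠ r → 0 < ψ q → 0 < ψ r → Nat.Coprime q r)
    (F : Finset ℕ) (hF : ∀ q ∈ F, 0 < q ∧ 0 < ψ q) :
    4 * (∑ q ∈ F, ψ q) ^ 2 ≤ volume.real (⋃ q ∈ F, circSet γ q (ψ q)) *
      (4 * (∑ q ∈ F, ψ q) ^ 2 + 6 * ∑ q ∈ F, ψ q) := by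
  classical
  set Ψ := ∑ q ∈ F, ψ q with hΨ
  have hvol : ∀ q ∈ F, volume.real (circSet γ q (ψ q)) = 2 * ψ q := by
    intro q hq
    have h1 := volume_circSet γ (hF q hq).1 (ψ q)
    have h2 : min 1 (2 * ψ q) = 2 * ψ q := min_eq_right (by linarith [hhalf q])
    rw [Measure.real, h1, h2, ENNReal.toReal_ofReal (by linarith [(hF q hq).2])]
  have hce := chung_erdos volume F (fun q => circSet γ q (ψ q))
    (fun q _ => measurableSet_circSet _ _ _)
  have hsum1 : ∑ q ∈ F, volume.real (circSet γ q (ψ q)) = 2 * Ψ := by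
    rw [Finset.sum_congr rfl hvol, ← Finset.mul_sum]
  rw [hsum1] at hce
  have hpair : ∀ q ∈ F, ∀ r ∈ F, volume.real (circSet γ q (ψ q) ∩ circSet γ r (ψ r))
      ≤ 4 * ψ q * ψ r + (if r < q then 2 * ψ q / q else 0)
        + (if q < r then 2 * ψ r / r else 0) + (if q = r then 2 * ψ q else 0) := by
    intro q hq r hr
    have hq0 := (hF q hq).1
    have hr0 := (hF r hr).1
    have hqψ := (hF q hq).2
    have hrψ := (hF r hr).2
    have hqR : (0 : ℝ) < (q : ℝ) := by exact_mod_cast hq0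
    have hrR : (0 : ℝ) < (r : ℝ) := by exact_mod_cast hr0
    rcases lt_trichotomy q r with hlt | heq | hgt
    · have hne : r ≠ q := (ne_of_lt hlt).symm
      have ho := overlap γ r q hr0 (hcop r q hr0 hq0 hne hrψ hqψ) (ψ r) (ψ q) hqψ.le
      rw [hvol r hr] at ho
      rw [inter_comm]
      have e : 2 * ψ r * (2 * ψ q + 1 / (r : ℝ)) = 4 * ψ q * ψ r + 2 * ψ r / r := by
        field_simp; ring
      rw [e] at ho
      simp only [hlt, if_true, not_lt_of_gt hlt, if_false, (ne_of_lt hlt)]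
      linarith
    · subst heq
      rw [inter_self, hvol q hq]
      simp only [lt_irrefl, if_false, if_true]
      nlinarith
    · have hne : q ≠ r := (ne_of_lt hgt).symm
      have ho := overlap γ q r hq0 (hcop q r hq0 hr0 hne hqψ hrψ) (ψ q) (ψ r) hrψ.le
      rw [hvol q hq] at ho
      have e : 2 * ψ q * (2 * ψ r + 1 / (q : ℝ)) = 4 * ψ q * ψ r + 2 * ψ q / q := by
        field_simp; ring
      rw [e] at ho
      simp only [hgt, if_true, not_lt_of_gt hgt, if_false, hne]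
      linarith
  have hΨ0 : 0 ≤ Ψ := Finset.sum_nonneg fun q hq => (hF q hq).2.le
  -- the four sums
  have hS1 : ∑ q ∈ F, ∑ r ∈ F, 4 * ψ q * ψ r = 4 * Ψ ^ 2 := by
    have : ∀ q ∈ F, ∑ r ∈ F, 4 * ψ q * ψ r = 4 * ψ q * Ψ := by
      intro q _; rw [← Finset.mul_sum]
    rw [Finset.sum_congr rfl this, ← Finset.sum_mul, ← Finset.mul_sum]; ring
  have hcardlt : ∀ q : ℕ, ((F.filter (fun r => r < q)).card : ℝ) ≤ q := by
    intro q
    have : (F.filter (fun r => r < q)).card ≤ (Finset.range q).card := by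
      apply Finset.card_le_card
      intro r hr
      exact Finset.mem_range.mpr (Finset.mem_filter.mp hr).2
    rw [Finset.card_range] at this
    exact_mod_cast this
  have hS2 : ∑ q ∈ F, ∑ r ∈ F, (if r < q then 2 * ψ q / q else 0) ≤ 2 * Ψ := by
    rw [hΨ, Finset.mul_sum]
    refine Finset.sum_le_sum fun q hq => ?_
    have hqR : (0 : ℝ) < (q : ℝ) := by exact_mod_cast (hF q hq).1
    rw [← Finset.sum_filter, Finset.sum_const, nsmul_eq_mul]
    have h1 := hcardlt q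
    have h2 : 0 ≤ 2 * ψ q / q := by have := (hF q hq).2; positivity
    calc ((F.filter (fun r => r < q)).card : ℝ) * (2 * ψ q / q)
        ≤ (q : ℝ) * (2 * ψ q / q) := mul_le_mul_of_nonneg_right h1 h2
      _ = 2 * ψ q := by field_simp
  have hS3 : ∑ q ∈ F, ∑ r ∈ F, (if q < r then 2 * ψ r / r else 0) ≤ 2 * Ψ := by
    rw [Finset.sum_comm]
    exact hS2
  have hS4 : ∑ q ∈ F, ∑ r ∈ F, (if q = r then 2 * ψ q else 0) = 2 * Ψ := by
    rw [hΨ, Finset.mul_sum]
    refine Finset.sum_congr rfl fun q hq => ?_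
    rw [Finset.sum_ite_eq F q]
    simp [hq]
  have hsumpair : ∑ q ∈ F, ∑ r ∈ F, volume.real (circSet γ q (ψ q) ∩ circSet γ r (ψ r))
      ≤ 4 * Ψ ^ 2 + 6 * Ψ := by
    calc ∑ q ∈ F, ∑ r ∈ F, volume.real (circSet γ q (ψ q) ∩ circSet γ r (ψ r))
        ≤ ∑ q ∈ F, ∑ r ∈ F, (4 * ψ q * ψ r + (if r < q then 2 * ψ q / q else 0)
          + (if q < r then 2 * ψ r / r else 0) + (if q = r then 2 * ψ q else 0)) :=
          Finset.sum_le_sum fun q hq => Finset.sum_le_sum fun r hr => hpair q hq r hr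
      _ = (∑ q ∈ F, ∑ r ∈ F, 4 * ψ q * ψ r)
          + (∑ q ∈ F, ∑ r ∈ F, (if r < q then 2 * ψ q / q else 0))
          + (∑ q ∈ F, ∑ r ∈ F, (if q < r then 2 * ψ r / r else 0))
          + (∑ q ∈ F, ∑ r ∈ F, (if q = r then 2 * ψ q else 0)) := by
          simp only [Finset.sum_add_distrib]
      _ ≤ 4 * Ψ ^ 2 + 6 * Ψ := by linarith
  have hm0 : 0 ≤ volume.real (⋃ q ∈ F, circSet γ q (ψ q)) := measureReal_nonneg
  calc 4 * Ψ ^ 2 = (2 * Ψ) ^ 2 := by ring
    _ ≤ _ := hce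
    _ ≤ _ := mul_le_mul_of_nonneg_left hsumpair hm0

end Vale.Agent.Helper28

namespace Vale.Agent.Helper28

theorem exists_large_block (ψ : ℕ → ℝ) (h0 : ∀ q, 0 ≤ ψ q) (hdiv : ¬ Summable ψ) (M : ℕ)
    (C : ℝ) : ∃ N, C ≤ ∑ q ∈ Finset.Ioc M N, ψ q := by
  have ht := (not_summable_iff_tendsto_nat_atTop_of_nonneg h0).mp hdiv
  obtain ⟨a, ha⟩ := (tendsto_atTop.mp ht (C + ∑ q ∈ Finset.range (M + 1), ψ q)).exists_forall_of_atTop
  refine ⟨max a (M + 1), ?_⟩
  have h1 := ha (max a (M + 1) + 1) (by omega)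
  have e : Finset.Ioc M (max a (M + 1)) = Finset.Ico (M + 1) (max a (M + 1) + 1) := by
    ext x; simp only [Finset.mem_Ioc, Finset.mem_Ico]; omega
  rw [e, Finset.sum_Ico_eq_sub _ (by omega : M + 1 ≤ max a (M + 1) + 1)]
  linarith

theorem circle_main (γ : UnitAddCircle) (ψ : ℕ → ℝ) (h0 : ∀ q, 0 ≤ ψ q)
    (hhalf : ∀ q, ψ q ≤ 1 / 2)
    (hcop : ∀ q r : ℕ, 0 < q → 0 < r → q ≠ r → 0 < ψ q → 0 < ψ r → Nat.Coprime q r)
    (hdiv : ¬ Summable ψ) :
    ∀ᵐ x : UnitAddCircle, ∀ M : ℕ, ∃ q, M < q ∧ x ∈ circSet γ q (ψ q) := by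
  classical
  rw [ae_all_iff]
  intro M
  set V : Set UnitAddCircle := ⋃ q ∈ {q : ℕ | M < q}, circSet γ q (ψ q) with hV
  have hVm : MeasurableSet V :=
    MeasurableSet.biUnion (Set.to_countable _) (fun q _ => measurableSet_circSet _ _ _)
  have huniv : volume.real (Set.univ : Set UnitAddCircle) = 1 := by
    simp [Measure.real]
  have hle1 : volume.real V ≤ 1 := by
    calc volume.real V ≤ volume.real (Set.univ : Set UnitAddCircle) :=
          measureReal_mono (subset_univ _) (measure_ne_top _ _)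
      _ = 1 := huniv
  have key : ∀ η : ℝ, 0 < η → 1 - η ≤ volume.real V := by
    intro η hη
    obtain ⟨N, hN⟩ := exists_large_block ψ h0 hdiv M (3 / (2 * η))
    set F := (Finset.Ioc M N).filter (fun q => 0 < ψ q) with hF
    have hFsum : ∑ q ∈ F, ψ q = ∑ q ∈ Finset.Ioc M N, ψ q := by
      rw [hF, Finset.sum_filter]
      refine Finset.sum_congr rfl fun q _ => ?_
      by_cases h : 0 < ψ q
      · simp [h]
      · simp only [h, if_false]; linarith [h0 q]
    have hFprop : ∀ q ∈ F, 0 < q ∧ 0 < ψ q := by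
      intro q hq
      rw [hF, Finset.mem_filter, Finset.mem_Ioc] at hq
      exact ⟨by omega, hq.2⟩
    have hfb := finite_bound γ ψ hhalf hcop F hFprop
    rw [hFsum] at hfb
    set Ψ := ∑ q ∈ Finset.Ioc M N, ψ q with hΨ
    have hsub : (⋃ q ∈ F, circSet γ q (ψ q)) ⊆ V := by
      intro x hx
      simp only [mem_iUnion] at hx
      obtain ⟨q, hq, hx⟩ := hx
      rw [hF, Finset.mem_filter, Finset.mem_Ioc] at hq
      exact mem_biUnion (show q ∈ {q : ℕ | M < q} from hq.1.1) hx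
    have hmono : volume.real (⋃ q ∈ F, circSet γ q (ψ q)) ≤ volume.real V :=
      measureReal_mono hsub (measure_ne_top _ _)
    have hpos : 0 < 3 / (2 * η) := by positivity
    have hΨpos : 0 < Ψ := lt_of_lt_of_le hpos hN
    have hη4 : 6 ≤ 4 * η * Ψ := by
      have := (div_le_iff₀ (by positivity : (0 : ℝ) < 2 * η)).mp hN
      linarith
    by_contra hcon
    replace hcon := not_le.mp hcon
    have hD : 0 < 4 * Ψ ^ 2 + 6 * Ψ := by positivity
    have h1 : volume.real (⋃ q ∈ F, circSet γ q (ψ q)) * (4 * Ψ ^ 2 + 6 * Ψ)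
        < (1 - η) * (4 * Ψ ^ 2 + 6 * Ψ) :=
      mul_lt_mul_of_pos_right (lt_of_le_of_lt hmono hcon) hD
    have h2 : 4 * Ψ ^ 2 < (1 - η) * (4 * Ψ ^ 2 + 6 * Ψ) := lt_of_le_of_lt hfb h1
    nlinarith [mul_pos hη hΨpos, mul_pos (mul_pos hη hΨpos) hΨpos]
  have hone : volume.real V = 1 := by
    apply le_antisymm hle1
    by_contra hcon
    replace hcon := not_le.mp hcon
    have := key ((1 - volume.real V) / 2) (by linarith)
    linarith
  have hV1 : volume V = 1 := by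
    have h := hone
    rw [Measure.real] at h
    exact (ENNReal.toReal_eq_one_iff _).mp h
  have hcompl : volume Vᶜ = 0 := by
    rw [measure_compl hVm (measure_ne_top _ _), hV1]
    simp
  rw [ae_iff]
  have hset : {x : UnitAddCircle | ¬ ∃ q, M < q ∧ x ∈ circSet γ q (ψ q)} = Vᶜ := by
    ext x
    simp [hV]
  rw [hset]
  exact hcompl

end Vale.Agent.Helper28
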