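import Mathlib
import Vale.Agent.Helper28.CircleMain

open MeasureTheory Set Filter

namespace Vale.Agent.Helper28

/-- Transfer from the circle to the real line. -/
theorem real_of_circle (γ : ℝ) (ψ : ℕ → ℝ)
    (h : ∀ᵐ x : UnitAddCircle, ∀ M : ℕ, ∃ q, M < q ∧ x ∈ circSet (γ : UnitAddCircle) q (ψ q)) :
    ∀ᵐ x : ℝ, {q : ℕ | 0 < q ∧ ∃ a : ℤ, |(q : ℝ) * x - (a : ℝ) - γ| < ψ q}.Infinite := by
  have h1 : ∀ n : ℤ, ∀ᵐ x : ℝ ∂(volume.restrict (Ioc (n : ℝ) (n + 1))),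
      ∀ M : ℕ, ∃ q, M < q ∧ ((x : ℝ) : UnitAddCircle) ∈ circSet (γ : UnitAddCircle) q (ψ q) :=
    fun n => (UnitAddCircle.measurePreserving_mk (n : ℝ)).quasiMeasurePreserving.ae h
  have h2 : ∀ᵐ x : ℝ, ∀ M : ℕ, ∃ q, M < q ∧
      ((x : ℝ) : UnitAddCircle) ∈ circSet (γ : UnitAddCircle) q (ψ q) := by
    have := (ae_restrict_iUnion_iff (μ := (volume : Measure ℝ))
      (fun n : ℤ => Ioc (n : ℝ) (n + 1)) _).mpr h1
    rwa [iUnion_Ioc_intCast, Measure.restrict_univ] at this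
  filter_upwards [h2] with x hx
  apply Set.infinite_of_forall_exists_gt
  intro M
  obtain ⟨q, hq, hmem⟩ := hx M
  rw [mem_circSet_coe] at hmem
  obtain ⟨m, hm⟩ := hmem
  refine ⟨q, ⟨by omega, m, ?_⟩, hq⟩
  have e : (q : ℝ) * x - (m : ℝ) - γ = (q : ℝ) * x - γ - (m : ℝ) := by ring
  rw [e]; exact hm

/-- Truncation at `1/2` preserves divergence. -/
theorem not_summable_min_half (ψ : ℕ → ℝ) (h0 : ∀ q, 0 ≤ ψ q) (hdiv : ¬ Summable ψ) :
    ¬ Summable (fun q => min (ψ q) (1 / 2)) := by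
  intro hs
  have ht := hs.tendsto_atTop_zero
  have hev : ∀ᶠ q in atTop, min (ψ q) (1 / 2) < 1 / 2 :=
    ht.eventually (gt_mem_nhds (by norm_num : (0 : ℝ) < 1 / 2))
  obtain ⟨Q, hQ⟩ := eventually_atTop.mp hev
  apply hdiv
  rw [← summable_nat_add_iff Q]
  have hs' := (summable_nat_add_iff Q).mpr hs
  refine hs'.congr ?_
  intro n
  have := hQ (n + Q) (by omega)
  have hlt : ψ (n + Q) < 1 / 2 := by
    by_contra hcon
    rw [min_eq_right (not_lt.mp hcon)] at this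
    exact lt_irrefl _ this
  exact min_eq_left hlt.le

/-- Main theorem on the real line, unweighted divergence, pairwise coprime support. -/
theorem real_main (γ : ℝ) (ψ : ℕ → ℝ) (hψ : ∀ q, 0 ≤ ψ q)
    (hcop : ∀ q r : ℕ, 0 < q → 0 < r → q ≠ r → 0 < ψ q → 0 < ψ r → Nat.Coprime q r)
    (hdiv : ¬ Summable ψ) :
    ∀ᵐ x : ℝ, {q : ℕ | 0 < q ∧ ∃ a : ℤ, |(q : ℝ) * x - (a : ℝ) - γ| < ψ q}.Infinite := by
  set ψ' : ℕ → ℝ := fun q => min (ψ q) (1 / 2) with hψ'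
  have h0' : ∀ q, 0 ≤ ψ' q := fun q => le_min (hψ q) (by norm_num)
  have hhalf : ∀ q, ψ' q ≤ 1 / 2 := fun q => min_le_right _ _
  have hpos : ∀ q, 0 < ψ' q → 0 < ψ q := fun q h => lt_of_lt_of_le h (min_le_left _ _)
  have hcop' : ∀ q r : ℕ, 0 < q → 0 < r → q ≠ r → 0 < ψ' q → 0 < ψ' r → Nat.Coprime q r :=
    fun q r hq hr hne h1 h2 => hcop q r hq hr hne (hpos q h1) (hpos r h2)
  have hdiv' : ¬ Summable ψ' := not_summable_min_half ψ hψ hdiv
  have hc := circle_main (γ : UnitAddCircle) ψ' h0' hhalf hcop' hdiv'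
  have hr := real_of_circle γ ψ' hc
  filter_upwards [hr] with x hx
  refine hx.mono ?_
  rintro q ⟨hq, a, ha⟩
  exact ⟨hq, a, lt_of_lt_of_le ha (min_le_left _ _)⟩

/-- Weighted divergence implies unweighted divergence. -/
theorem not_summable_of_weighted (ψ : ℕ → ℝ) (hψ : ∀ q, 0 ≤ ψ q)
    (hdiv : ¬ Summable (fun q : ℕ => (Nat.totient q : ℝ) / (q : ℝ) * ψ q)) :
    ¬ Summable ψ := by
  intro hs
  apply hdiv
  refine Summable.of_nonneg_of_le (fun q => ?_) (fun q => ?_) hs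
  · exact mul_nonneg (div_nonneg (Nat.cast_nonneg _) (Nat.cast_nonneg _)) (hψ q)
  · have h1 : (Nat.totient q : ℝ) / (q : ℝ) ≤ 1 :=
      div_le_one_of_le₀ (by exact_mod_cast Nat.totient_le q) (Nat.cast_nonneg q)
    calc (Nat.totient q : ℝ) / (q : ℝ) * ψ q ≤ 1 * ψ q :=
          mul_le_mul_of_nonneg_right h1 (hψ q)
      _ = ψ q := one_mul _

end Vale.Agent.Helper28
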